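import Vale.Agent.Lib.P154.Chain.Check

set_option linter.all false

namespace Vale.Agent.Lib.P154.Chain.D8

/-- the global parameters -/
noncomputable def g : GP := ⟨8, 3536, 10000, 46, 30, 64, 94, 84⟩

/-- the operations of the power -/
noncomputable def ops : Ops := (Ops.sq (Ops.sq (Ops.sq Ops.nil)))

/-- a lattice -/
noncomputable def l0 : LP := ⟨1031, 1000, 37, 296, 152, (nat_lit 328107816416498385397934570846519128315906374092622321554170584163951967305558045605093419825240835327921385369503529179061966334619702066656054779264415162089869882888531969598372760579474137726259421941101747724869384294270697529542359923267547801514959323115353857457983811857021187531463078929713069423307696073916875262817767324642542135588638365813898336302108005993168238002288503125454769039437820267576258153733551863165548605544020946709031850844930099892650473877091826629192464036234422838554449586322441198070426421410002238147083459945381533699142017627207575171732624430460327332859011422163384799545002680865423632960053070803399566767564661508418910255603849201661188893996309637430265296794220354328800724151111573719323657356698492604487223673967475048378236692626786514547867641443044614454901568949230351436250930564985631661940141981039931585761747545252845784074075186469599170296750616417985202860831799927431696182588501285263229104589401084412614038936358696225476757024654617858836996250370529741805020764963633259970535920471864689298242566063353775152661414644219073767282753988008538638238569642885848495168126559840283392271370948415603712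545988684696716163110938068582592523308846437559430327225155469778468153785143032026302097573867935013796311506037599583420722086825239580105882509637055216076702348422147279762145948277641588311485985850386141328815016246991629132126072308147405378767121930421028436789791208385374561794619957013873523242177037118206452693638111389248494598643504006577806482841694681676320827600943943528271357354730766787055813987668648400762378922200075816911897948532840135257226310881325610125269930255253202194901624366805754945431010287632825311820136115265296403921379464439612751161458859315374777553573588757179838479318439328053375394478871101317791094776034382181599171225560954672133287052547983582929926138433819995881784738842299171815137005665639467559187357454735135880697474952651040102337246927654420806625672542018575569600232819927129167376642037745731179814583156130133277774752408429180024274151919472320987035232116096251504461793074001019432482727453273916516871298227501012753336427318042663804603949255378402385466375318536192)⟩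

/-- the parameters of the class at the hand-off -/
noncomputable def hp : HP := ⟨288, 10000, 8, 1, 11, 5, 3, 2, 64⟩

set_option maxRecDepth 100000 in
theorem ops_ok : Ops.expo ops 1 = g.d := by
  decide +kernel

end Vale.Agent.Lib.P154.Chain.D8
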